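import Vale.Agent.P183S.Main

namespace Vale.Agent.Results.P183.AtMostSeven

open Vale.Agent.P183

theorem result (M : Type) [Lattice M] [Finite M] [Nonempty M] (h : Nat.card M ≤ 7) :
    Rep M (· ≤ ·) :=
  Vale.Agent.P183S.rep_seven _ M rfl h

end Vale.Agent.Results.P183.AtMostSeven
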