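import Vale.Agent.P183.Dual
import Vale.Agent.P183L.Main

namespace Vale.Agent.Results.P183.Both

open Vale.Agent.P183 Vale.Agent.P183L

theorem result :
    Rep (Option (Fin 2 × Fin 3)) leL7 ∧
    (∀ (M L : Type) [Lattice M] [BoundedOrder M] [Finite M] [Lattice L] (f : LatticeHom M L),
      Function.Surjective f → Rep L (· ≤ ·) →
      ((∀ q, ¬ Relation.TransGen (fun q r => Dep q r ∧ Collapsed f q ∧ Collapsed f r) q q) ∨
        ∀ q : Mᵒᵈ, ¬ Relation.TransGen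
          (fun q r : Mᵒᵈ => Dep q r ∧ Collapsed (fun x : Mᵒᵈ => f (OrderDual.ofDual x)) q ∧
            Collapsed (fun x : Mᵒᵈ => f (OrderDual.ofDual x)) r) q q) →
      Rep M (· ≤ ·)) ∧
    (∀ (L K : Type) [Lattice L] [BoundedOrder L] [Finite L] [Lattice K] [BoundedOrder K],
      Rep L (· ≤ ·) → Rep K (· ≤ ·) → ∀ (C : Set L) (a : L), C.OrdConnected →
      IsLeast C a ∨ IsGreatest C a →
      Rep {p : L × K // p.1 ∉ C → p.2 = ⊥}
        fun p q => p.1.1 ≤ q.1.1 ∧ (p.1.1 ∈ C → q.1.1 ∈ C → p.1.2 ≤ q.1.2)) :=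
  ⟨rep_L7,
    fun _ _ _ _ _ _ f hf hL hD => hD.elim (rep_rel f hf hL) (rep_rel_dual f hf hL),
    fun _ _ _ _ _ _ _ hL hK C a hC ha =>
      ha.elim (rep_mul hL hK C hC a) (rep_mul_dual hL hK C hC a)⟩

end Vale.Agent.Results.P183.Both
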