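import Vale.Agent.P183.Rel

namespace Vale.Agent.Results.P183.Extension

open Vale.Agent.P183

theorem result :
    (∀ (M L : Type) [Lattice M] [OrderBot M] [Finite M] [Lattice L] (f : LatticeHom M L),
      Function.Surjective f → Rep L (· ≤ ·) →
      (∀ q, ¬ Relation.TransGen (fun q r => Dep q r ∧ Collapsed f q ∧ Collapsed f r) q q) →
      Rep M (· ≤ ·)) ∧
    (∀ (L K : Type) [Lattice L] [BoundedOrder L] [Finite L] [Lattice K] [BoundedOrder K],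
      Rep L (· ≤ ·) → Rep K (· ≤ ·) → ∀ (C : Set L) (a : L), C.OrdConnected → IsLeast C a →
      Rep {p : L × K // p.1 ∉ C → p.2 = ⊥}
        fun p q => p.1.1 ≤ q.1.1 ∧ (p.1.1 ∈ C → q.1.1 ∈ C → p.1.2 ≤ q.1.2)) ∧
    (∀ (L K : Type) [Lattice L] [BoundedOrder L] [Finite L] [Lattice K] [BoundedOrder K],
      Rep L (· ≤ ·) → Rep K (· ≤ ·) → ∀ (β : L → K) (γ : K → L), Monotone β →
      (∀ x z, β x ≤ z ∨ γ z ≤ x) →
      Rep {p : L × K // β p.1 ≤ p.2 ∧ ∀ z, p.2 ≤ z ∨ γ z ≤ p.1}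
        fun p q => p.1.1 ≤ q.1.1 ∧ p.1.2 ≤ q.1.2) :=
  ⟨fun _ _ _ _ _ _ f hf hL hD => rep_rel f hf hL hD,
    fun _ _ _ _ _ _ _ hL hK C a hC ha => rep_mul hL hK C hC a ha,
    fun _ _ _ _ _ _ _ hL hK β γ hβ hc => rep_glue hL hK β γ hβ hc⟩

end Vale.Agent.Results.P183.Extension
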