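import Vale.Agent.P183L.Main

namespace Vale.Agent.Results.P183.SevenL

open Vale.Agent.P183 Vale.Agent.P183L

theorem result : Rep (Option (Fin 2 × Fin 3)) leL7 := rep_L7

end Vale.Agent.Results.P183.SevenL
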